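import Vale.Agent.P083.Model

namespace Vale.Agent.Results.P083.NoEmbedding

universe u

/-- There is a separable unital C*-algebra `A` with no unital embedding into the norm
ultrapower of any nonzero C*-algebra generated by a Cuntz pair, for any ultrafilter. -/
theorem result :
    ∃ (A : Type) (_ : CStarAlgebra A), TopologicalSpace.SeparableSpace A ∧
      ∀ (B : Type u) [CStarAlgebra B] [Nontrivial B] (s₁ s₂ : B),
        Vale.Agent.P083.IsCuntzPair s₁ s₂ →
        ∀ (ω : Ultrafilter ℕ) (θ : StarAlgHom ℂ A (Vale.Agent.P083.Ultrapower B ω)),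
          ¬ Function.Injective θ :=
  ⟨Vale.Agent.P083.Alg, inferInstance, Vale.Agent.P083.alg_sep,
    fun _ _ _ _ _ hc ω θ => Vale.Agent.P083.alg_no_embed hc ω θ⟩

end Vale.Agent.Results.P083.NoEmbedding
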